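import Crest.Agent.S0047.Zone

set_option autoImplicit false

namespace Crest.Agent.S0047
open Crest.CombinatoricsR.PolyominoGame

/-! Basic facts about `cellOf`, `tb`, `cells` (job S0047/CELLS). -/

theorem tb_eq_testBit (m i : ℕ) : tb m i = m.testBit i := by
  have h1 : Nat.land (Nat.shiftRight m i) 1 = m / 2 ^ i % 2 := by
    show (m >>> i) &&& 1 = m / 2 ^ i % 2
    rw [Nat.and_one_is_mod, Nat.shiftRight_eq_div_pow]
  unfold tb
  rw [h1, Nat.testBit_eq_decide_div_mod_eq]
  by_cases h : m / 2 ^ i % 2 = 1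
  · simp [h]
  · have h0 : m / 2 ^ i % 2 = 0 := by omega
    rw [h0]
    rfl

theorem cellOf_inj {i j : ℕ} (hi : i < 256) (hj : j < 256) (h : cellOf i = cellOf j) : i = j := by
  unfold cellOf at h
  have h1 := congrArg Prod.fst h
  have h2 := congrArg Prod.snd h
  simp only at h1 h2
  omega

/-- membership in `cells m` for an arbitrary cell. -/
theorem cellsAux_mem (m : ℕ) (c : ℤ × ℤ) :
    c ∈ cells m ↔ ∃ i, i < 256 ∧ m.testBit i = true ∧ cellOf i = c := by
  unfold cells
  simp only [Finset.mem_image, Finset.mem_filter, Finset.mem_range, tb_eq_testBit]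
  constructor
  · rintro ⟨i, ⟨hi, hb⟩, hc⟩
    exact ⟨i, hi, hb, hc⟩
  · rintro ⟨i, hi, hb, hc⟩
    exact ⟨i, ⟨hi, hb⟩, hc⟩

theorem mem_cells {m i : ℕ} (hi : i < 256) : cellOf i ∈ cells m ↔ tb m i = true := by
  rw [cellsAux_mem, tb_eq_testBit]
  constructor
  · rintro ⟨j, hj, hb, hc⟩
    have := cellOf_inj hj hi hc
    subst this
    exact hb
  · intro hb
    exact ⟨i, hi, hb, rfl⟩

theorem cells_zero : cells 0 = ∅ := by
  ext c
  rw [cellsAux_mem]
  simp

theorem cells_lor (a b : ℕ) : cells (Nat.lor a b) = cells a ∪ cells b := by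
  ext c
  rw [Finset.mem_union, cellsAux_mem, cellsAux_mem, cellsAux_mem]
  have key : ∀ i, (Nat.lor a b).testBit i = (a.testBit i || b.testBit i) := fun i => by
    show (a ||| b).testBit i = _
    exact Nat.testBit_or a b i
  constructor
  · rintro ⟨i, hi, hb, hc⟩
    rw [key, Bool.or_eq_true] at hb
    rcases hb with hb | hb
    · exact Or.inl ⟨i, hi, hb, hc⟩
    · exact Or.inr ⟨i, hi, hb, hc⟩
  · rintro (⟨i, hi, hb, hc⟩ | ⟨i, hi, hb, hc⟩)
    · exact ⟨i, hi, by rw [key, hb]; rfl, hc⟩
    · exact ⟨i, hi, by rw [key, hb]; simp, hc⟩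

theorem cells_land (a b : ℕ) : cells (Nat.land a b) = cells a ∩ cells b := by
  ext c
  rw [Finset.mem_inter, cellsAux_mem, cellsAux_mem, cellsAux_mem]
  have key : ∀ i, (Nat.land a b).testBit i = (a.testBit i && b.testBit i) := fun i => by
    show (a &&& b).testBit i = _
    exact Nat.testBit_and a b i
  constructor
  · rintro ⟨i, hi, hb, hc⟩
    rw [key, Bool.and_eq_true] at hb
    exact ⟨⟨i, hi, hb.1, hc⟩, ⟨i, hi, hb.2, hc⟩⟩
  · rintro ⟨⟨i, hi, hb, hc⟩, ⟨j, hj, hb', hc'⟩⟩
    have hij : i = j := cellOf_inj hi hj (hc.trans hc'.symm)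
    subst hij
    exact ⟨i, hi, by rw [key, hb, hb']; rfl, hc⟩

theorem cells_bit {i : ℕ} (hi : i < 256) : cells (Nat.shiftLeft 1 i) = {cellOf i} := by
  ext c
  rw [Finset.mem_singleton, cellsAux_mem]
  have key : ∀ j, (Nat.shiftLeft 1 i).testBit j = decide (i = j) := fun j => by
    show (1 <<< i).testBit j = _
    rw [Nat.one_shiftLeft, Nat.testBit_two_pow]
  constructor
  · rintro ⟨j, hj, hb, hc⟩
    rw [key, decide_eq_true_eq] at hb
    subst hb
    exact hc.symm
  · intro hc
    exact ⟨i, hi, by rw [key]; simp, hc.symm⟩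

theorem cells_subset {a b : ℕ} (h : Nat.beq (Nat.land a b) a = true) : cells a ⊆ cells b := by
  have h' : Nat.land a b = a := Nat.eq_of_beq_eq_true h
  have h2 : cells a = cells a ∩ cells b := by
    rw [← cells_land, h']
  rw [h2]
  exact Finset.inter_subset_right

/-- removing a set bit. -/
theorem cells_xor_bit {z e : ℕ} (he : e < 256) (h : tb z e = true) :
    cells (Nat.xor z (Nat.shiftLeft 1 e)) = (cells z).erase (cellOf e) := by
  rw [tb_eq_testBit] at h
  ext c
  rw [Finset.mem_erase, cellsAux_mem, cellsAux_mem]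
  have key : ∀ j, (Nat.xor z (Nat.shiftLeft 1 e)).testBit j =
      (z.testBit j ^^ decide (e = j)) := fun j => by
    show (z ^^^ (1 <<< e)).testBit j = _
    rw [Nat.testBit_xor, Nat.one_shiftLeft, Nat.testBit_two_pow]
  constructor
  · rintro ⟨j, hj, hb, hc⟩
    rw [key] at hb
    by_cases hej : e = j
    · subst hej
      rw [h] at hb
      simp at hb
    · have hb' : z.testBit j = true := by
        simpa [hej] using hb
      refine ⟨?_, j, hj, hb', hc⟩
      intro hce
      exact hej (cellOf_inj hj he (hc.trans hce)).symm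
  · rintro ⟨hne, j, hj, hb, hc⟩
    have hej : e ≠ j := by
      intro hej
      subst hej
      exact hne hc.symm
    exact ⟨j, hj, by rw [key, hb]; simp [hej], hc⟩

end Crest.Agent.S0047
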