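import Mathlib
import Crest.Prelude.Def_PolyominoGame

set_option autoImplicit false

namespace Crest.Agent.S0047
open Crest.CombinatoricsR.PolyominoGame

/-- Maker, to move with `k` claims left, wins from Maker cells `M` and Breaker cells `B`. -/
def MWin : ℕ → Finset (ℤ × ℤ) → Finset (ℤ × ℤ) → Prop
  | 0, M, _ => ContainsCopy (M : Set (ℤ × ℤ))
  | k+1, M, B => ContainsCopy (M : Set (ℤ × ℤ)) ∨
      ∃ m, m ∉ M ∧ m ∉ B ∧ ∀ c, c ∉ insert m M → c ∉ B → MWin k (insert m M) (insert c B)

theorem containsCopy_mono {X Y : Set (ℤ × ℤ)} (h : X ⊆ Y) (hX : ContainsCopy X) :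
    ContainsCopy Y := by
  obtain ⟨t, e1, e2, h1, h2, h3⟩ := hX
  refine ⟨t, e1, e2, h1, h2, ?_⟩
  rcases h3 with h3 | h3
  · exact Or.inl fun p hp => h (h3 p hp)
  · exact Or.inr fun p hp => h (h3 p hp)

theorem exists_fresh (M B : Finset (ℤ × ℤ)) : ∃ m : ℤ × ℤ, m ∉ M ∧ m ∉ B := by
  obtain ⟨m, hm⟩ := Infinite.exists_notMem_finset (M ∪ B)
  exact ⟨m, fun h => hm (Finset.mem_union_left _ h), fun h => hm (Finset.mem_union_right _ h)⟩

open Classical in
/-- Maker's next cell. -/
noncomputable def pick (k : ℕ) (M B : Finset (ℤ × ℤ)) : ℤ × ℤ :=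
  if h : ∃ m, m ∉ M ∧ m ∉ B ∧
      ∀ c, c ∉ insert m M → c ∉ B → MWin (k-1) (insert m M) (insert c B)
  then h.choose else (exists_fresh M B).choose

theorem pick_notMem (k : ℕ) (M B : Finset (ℤ × ℤ)) : pick k M B ∉ M ∧ pick k M B ∉ B := by
  classical
  unfold pick
  split_ifs with h
  · exact ⟨h.choose_spec.1, h.choose_spec.2.1⟩
  · exact (exists_fresh M B).choose_spec

theorem pick_spec (k : ℕ) (M B : Finset (ℤ × ℤ)) (h : MWin (k+1) M B)
    (hM : ¬ ContainsCopy (M : Set (ℤ × ℤ))) :
    ∀ c, c ∉ insert (pick (k+1) M B) M → c ∉ B →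
      MWin k (insert (pick (k+1) M B) M) (insert c B) := by
  classical
  have h' : ∃ m, m ∉ M ∧ m ∉ B ∧
      ∀ c, c ∉ insert m M → c ∉ B → MWin (k+1-1) (insert m M) (insert c B) := by
    rcases h with h | h
    · exact absurd h hM
    · simpa using h
  unfold pick
  rw [dif_pos h']
  simpa using h'.choose_spec.2.2

/-- The policy: replay Breaker's replies. -/
noncomputable def strat : ℕ → Finset (ℤ × ℤ) → Finset (ℤ × ℤ) → List (ℤ × ℤ) → ℤ × ℤ
  | k, M, B, [] => pick k M B
  | k, M, B, c :: l => strat (k-1) (insert (pick k M B) M) (insert c B) l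

theorem makerClaim_zero (k : ℕ) (M B : Finset (ℤ × ℤ)) (b : ℕ → ℤ × ℤ) :
    makerClaim (strat k M B) b 0 = pick k M B := by
  simp [makerClaim, strat]

theorem makerClaim_succ (k : ℕ) (M B : Finset (ℤ × ℤ)) (b : ℕ → ℤ × ℤ) (i : ℕ) :
    makerClaim (strat (k+1) M B) b (i+1) =
      makerClaim (strat k (insert (pick (k+1) M B) M) (insert (b 0) B)) (fun j => b (j+1)) i := by
  simp only [makerClaim]
  rw [List.range_succ_eq_map, List.map_cons, List.map_map]
  simp only [strat, Nat.add_sub_cancel]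
  rfl

theorem MWin_of_containsCopy (k : ℕ) (M B : Finset (ℤ × ℤ))
    (h : ContainsCopy (M : Set (ℤ × ℤ))) : MWin k M B := by
  cases k with
  | zero => exact h
  | succ k => exact Or.inl h

theorem main_aux (k : ℕ) : ∀ (M B : Finset (ℤ × ℤ)) (b : ℕ → ℤ × ℤ),
    MWin k M B →
    (∀ i, i + 1 < k → b i ∉ M ∧ b i ∉ B ∧
      (∀ j, j ≤ i → b i ≠ makerClaim (strat k M B) b j) ∧ (∀ j, j < i → b i ≠ b j)) →
    (∀ i, i < k → makerClaim (strat k M B) b i ∉ M ∧ makerClaim (strat k M B) b i ∉ B ∧
      (∀ j, j < i → makerClaim (strat k M B) b i ≠ makerClaim (strat k M B) b j) ∧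
      (∀ j, j < i → makerClaim (strat k M B) b i ≠ b j)) ∧
    ContainsCopy ((M : Set (ℤ × ℤ)) ∪ {c | ∃ j, j < k ∧ c = makerClaim (strat k M B) b j}) := by
  induction k with
  | zero =>
    intro M B b h _
    refine ⟨fun i hi => absurd hi (Nat.not_lt_zero _), ?_⟩
    exact containsCopy_mono Set.subset_union_left h
  | succ k ih =>
    intro M B b h hb
    set m := pick (k+1) M B with hm
    have hmM := (pick_notMem (k+1) M B).1
    have hmB := (pick_notMem (k+1) M B).2
    -- the invariant after the first round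
    have hwin : MWin k (insert m M) (insert (b 0) B) := by
      by_cases hM : ContainsCopy (M : Set (ℤ × ℤ))
      · apply MWin_of_containsCopy
        exact containsCopy_mono (by simp) hM
      · have hs := pick_spec k M B h hM
        rcases Nat.eq_zero_or_pos k with hk | hk
        · subst hk
          obtain ⟨c, hc1, hc2⟩ := exists_fresh (insert m M) B
          have := hs c hc1 hc2
          exact this
        · have h0 := hb 0 (by omega)
          refine hs (b 0) ?_ h0.2.1
          rw [Finset.mem_insert, not_or]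
          refine ⟨?_, h0.1⟩
          have := h0.2.2.1 0 le_rfl
          rwa [makerClaim_zero] at this
    have hb' : ∀ i, i + 1 < k → (fun j => b (j+1)) i ∉ insert m M ∧
        (fun j => b (j+1)) i ∉ insert (b 0) B ∧
        (∀ j, j ≤ i → (fun j => b (j+1)) i ≠
          makerClaim (strat k (insert m M) (insert (b 0) B)) (fun j => b (j+1)) j) ∧
        (∀ j, j < i → (fun j => b (j+1)) i ≠ (fun j => b (j+1)) j) := by
      intro i hi
      have h1 := hb (i+1) (by omega)
      refine ⟨?_, ?_, ?_, ?_⟩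
      · rw [Finset.mem_insert, not_or]
        refine ⟨?_, h1.1⟩
        have := h1.2.2.1 0 (Nat.zero_le _)
        rwa [makerClaim_zero] at this
      · rw [Finset.mem_insert, not_or]
        exact ⟨h1.2.2.2 0 (Nat.succ_pos _), h1.2.1⟩
      · intro j hj
        have := h1.2.2.1 (j+1) (by omega)
        rwa [makerClaim_succ] at this
      · intro j hj
        exact h1.2.2.2 (j+1) (by omega)
    obtain ⟨ih1, ih2⟩ := ih (insert m M) (insert (b 0) B) (fun j => b (j+1)) hwin hb'
    refine ⟨?_, ?_⟩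
    · intro i hi
      cases i with
      | zero =>
        rw [makerClaim_zero]
        exact ⟨hmM, hmB, fun j hj => absurd hj (Nat.not_lt_zero _),
          fun j hj => absurd hj (Nat.not_lt_zero _)⟩
      | succ i =>
        rw [makerClaim_succ]
        obtain ⟨a1, a2, a3, a4⟩ := ih1 i (by omega)
        rw [Finset.mem_insert, not_or] at a1 a2
        refine ⟨a1.2, a2.2, ?_, ?_⟩
        · intro j hj
          cases j with
          | zero => rw [makerClaim_zero]; exact a1.1
          | succ j => rw [makerClaim_succ]; exact a3 j (by omega)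
        · intro j hj
          cases j with
          | zero => exact a2.1
          | succ j => exact a4 j (by omega)
    · refine containsCopy_mono ?_ ih2
      intro c hc
      rcases hc with hc | ⟨j, hj, rfl⟩
      · rw [Finset.coe_insert] at hc
        rcases hc with rfl | hc
        · exact Or.inr ⟨0, Nat.succ_pos _, (makerClaim_zero _ _ _ _).symm⟩
        · exact Or.inl hc
      · exact Or.inr ⟨j+1, by omega, (makerClaim_succ _ _ _ _ _).symm⟩

/-- If Maker wins the abstract game within 21 claims from the empty board, the statement holds. -/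
theorem result_of_MWin (h : MWin 21 ∅ ∅) :
    ∃ σ : List (ℤ × ℤ) → ℤ × ℤ, ∀ b : ℕ → ℤ × ℤ,
      (∀ k : ℕ, k < 20 →
        (∀ j : ℕ, j ≤ k → b k ≠ makerClaim σ b j) ∧
        (∀ j : ℕ, j < k → b k ≠ b j)) →
      (∀ k : ℕ, k ≤ 20 →
        (∀ j : ℕ, j < k → makerClaim σ b k ≠ makerClaim σ b j) ∧
        (∀ j : ℕ, j < k → makerClaim σ b k ≠ b j)) ∧
      ContainsCopy {c | ∃ j : ℕ, j ≤ 20 ∧ c = makerClaim σ b j} := by
  refine ⟨strat 21 ∅ ∅, fun b hb => ?_⟩
  obtain ⟨h1, h2⟩ := main_aux 21 ∅ ∅ b h (fun i hi =>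
    ⟨Finset.notMem_empty _, Finset.notMem_empty _, (hb i (by omega)).1, (hb i (by omega)).2⟩)
  refine ⟨fun k hk => ⟨(h1 k (by omega)).2.2.1, (h1 k (by omega)).2.2.2⟩, ?_⟩
  refine containsCopy_mono ?_ h2
  intro c hc
  rcases hc with hc | ⟨j, hj, rfl⟩
  · simp at hc
  · exact ⟨j, by omega, rfl⟩

end Crest.Agent.S0047
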