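import Crest.Agent.S0047.WGame

/-!
Snaky achievement game (S0047): bit-mask layer. Cells of the 32×32 window around Maker's first
stone are bits of a natural number; the lemma rules of `Game.lean` become statements about
`Nat.lor`, `Nat.land`, `Nat.xor`, `Nat.testBit` on literals, which the kernel evaluates natively.
-/

namespace Crest.Agent.S0047G

open Crest.CombinatoricsR.PolyominoGame

/-- bit index ↦ cell: index `i` is the cell `(i % 32 - 16, i / 32 - 16)`. -/
def cellOf (i : ℕ) : Cell := (((i % 32 : ℕ) : ℤ) - 16, ((i / 32 : ℕ) : ℤ) - 16)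

theorem cellOf_inj {i j : ℕ} (h : cellOf i = cellOf j) : i = j := by
  simp only [cellOf, Prod.mk.injEq] at h
  omega

theorem lt_succ_of_testBit {n i : ℕ} (h : n.testBit i = true) : i < n + 1 := by
  have h1 : 2 ^ i ≤ n := Nat.ge_two_pow_of_testBit h
  have h2 : i < 2 ^ i := Nat.lt_two_pow_self
  omega

/-- The set of cells coded by a bit mask. -/
def dec (n : ℕ) : Finset Cell := ((Finset.range (n+1)).filter (fun i => n.testBit i = true)).image cellOf

theorem mem_dec {n : ℕ} {x : Cell} : x ∈ dec n ↔ ∃ i, n.testBit i = true ∧ cellOf i = x := by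
  unfold dec
  simp only [Finset.mem_image, Finset.mem_filter, Finset.mem_range]
  constructor
  · rintro ⟨i, ⟨_, hi⟩, hx⟩; exact ⟨i, hi, hx⟩
  · rintro ⟨i, hi, hx⟩; exact ⟨i, ⟨lt_succ_of_testBit hi, hi⟩, hx⟩

theorem cellOf_mem_dec {n i : ℕ} : cellOf i ∈ dec n ↔ n.testBit i = true := by
  rw [mem_dec]
  constructor
  · rintro ⟨j, hj, hx⟩; rw [← cellOf_inj hx]; exact hj
  · intro h; exact ⟨i, h, rfl⟩

theorem dec_zero : dec 0 = ∅ := by
  ext x; simp [mem_dec]

theorem dec_or (a b : ℕ) : dec (a ||| b) = dec a ∪ dec b := by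
  ext x
  simp only [mem_dec, Finset.mem_union, Nat.testBit_lor, Bool.or_eq_true]
  constructor
  · rintro ⟨i, hi | hi, hx⟩
    · exact Or.inl ⟨i, hi, hx⟩
    · exact Or.inr ⟨i, hi, hx⟩
  · rintro (⟨i, hi, hx⟩ | ⟨i, hi, hx⟩)
    · exact ⟨i, Or.inl hi, hx⟩
    · exact ⟨i, Or.inr hi, hx⟩

theorem dec_and (a b : ℕ) : dec (a &&& b) = dec a ∩ dec b := by
  ext x
  simp only [mem_dec, Finset.mem_inter, Nat.testBit_land, Bool.and_eq_true]
  constructor
  · rintro ⟨i, ⟨h1, h2⟩, hx⟩
    exact ⟨⟨i, h1, hx⟩, ⟨i, h2, hx⟩⟩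
  · rintro ⟨⟨i, h1, hx⟩, ⟨j, h2, hy⟩⟩
    have : i = j := cellOf_inj (hx.trans hy.symm)
    subst this
    exact ⟨i, ⟨h1, h2⟩, hx⟩

/-- Bit-mask form of `W`. -/
def W' (n f k : ℕ) : Prop := W (dec n) (dec f) k

/-- Bit-mask form of `R`. -/
def R' (n fU fI k : ℕ) : Prop := R (dec n) (dec fU) (dec fI) k

theorem base' {n f k : ℕ} (h : W' n f k) : R' n f f k := R.base h

theorem combine' {n fU fI k n2 f2 k2 : ℕ} (h : R' n fU fI k) (h2 : W' n2 f2 k2) :
    R' (n ||| n2) (fU ||| f2) (fI &&& f2) (max k k2) := by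
  unfold R'
  rw [dec_or, dec_or, dec_and]
  exact R.combine h h2

/-- The check performed for one move lemma. -/
def stepCheck (n fU fI k c N F K : ℕ) : Bool :=
  (fI == 0) && (!fU.testBit c) && (N == n ^^^ (n &&& (1 <<< c))) && (F == fU ||| (1 <<< c)) && (K == k + 1)

theorem testBit_one_shiftLeft (c i : ℕ) : (1 <<< c).testBit i = decide (c = i) := by
  rw [Nat.one_shiftLeft, Nat.testBit_two_pow]

theorem finish' {n fU fI k : ℕ} (h : R' n fU fI k) (c N F K : ℕ)
    (hchk : stepCheck n fU fI k c N F K = true) : W' N F K := by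
  simp only [stepCheck, Bool.and_eq_true, beq_iff_eq, Bool.not_eq_true'] at hchk
  obtain ⟨⟨⟨⟨hI, hc⟩, hN⟩, hF⟩, hK⟩ := hchk
  subst hI hN hF hK
  have h' : R (dec n) (dec fU) ∅ k := by
    have := h; unfold R' at this; rwa [dec_zero] at this
  have hc' : cellOf c ∉ dec fU := by
    rw [cellOf_mem_dec, hc]; simp
  refine (R.finish h' hc').mono ?_ ?_ le_rfl
  · intro x hx
    rw [Finset.mem_erase, mem_dec] at hx
    obtain ⟨hxc, i, hi, hx⟩ := hx
    rw [mem_dec]
    refine ⟨i, ?_, hx⟩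
    have hic : c ≠ i := fun e => hxc (by rw [← hx, e])
    rw [Nat.testBit_xor, Nat.testBit_land, testBit_one_shiftLeft, hi]
    simp [hic]
  · intro x hx
    rw [Finset.mem_insert] at hx
    rw [dec_or, Finset.mem_union]
    rcases hx with hx | hx
    · right; rw [hx, cellOf_mem_dec, testBit_one_shiftLeft]; simp
    · exact Or.inl hx

/-! ### Leaves -/

/-- The six cells of Snaky as a list. -/
def snakyL : List (ℤ × ℤ) := [(0, 0), (1, 0), (2, 0), (3, 0), (3, 1), (4, 1)]

/-- bit index of a cell of the window. -/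
def idx (x y : ℤ) : ℕ := ((y + 16) * 32 + (x + 16)).toNat

/-- cell `(x, y)` lies in the window and its bit is set in `mask`. -/
def cellOK (mask : ℕ) (x y : ℤ) : Bool :=
  decide (-16 ≤ x) && decide (x < 16) && decide (-16 ≤ y) && decide (y < 16) && mask.testBit (idx x y)

theorem cellOK_mem {mask : ℕ} {x y : ℤ} (h : cellOK mask x y = true) : (x, y) ∈ dec mask := by
  simp only [cellOK, Bool.and_eq_true, decide_eq_true_eq] at h
  obtain ⟨⟨⟨⟨h1, h2⟩, h3⟩, h4⟩, h5⟩ := h
  rw [mem_dec]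
  refine ⟨idx x y, h5, ?_⟩
  simp only [cellOf, idx, Prod.mk.injEq]
  have e : ((y + 16) * 32 + (x + 16)).toNat = (y + 16).toNat * 32 + (x + 16).toNat := by omega
  rw [e]
  constructor <;> omega

/-- The placement `t + R(snaky)` (`sw = false`: `(t₁ + ε₁ p₁, t₂ + ε₂ p₂)`, `sw = true`: coordinates of
`p` swapped) lies in the window and inside `mask`. -/
def leafOK (mask : ℕ) (tx ty e1 e2 : ℤ) (sw : Bool) : Bool :=
  (decide (e1 = 1) || decide (e1 = -1)) && (decide (e2 = 1) || decide (e2 = -1)) &&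
    snakyL.all (fun p => if sw then cellOK mask (tx + e1 * p.2) (ty + e2 * p.1)
      else cellOK mask (tx + e1 * p.1) (ty + e2 * p.2))

theorem mem_snaky_iff (p : ℤ × ℤ) : p ∈ snaky ↔ p ∈ snakyL := by
  simp [snaky, snakyL]

theorem leaf' (mask : ℕ) (tx ty e1 e2 : ℤ) (sw : Bool) (h : leafOK mask tx ty e1 e2 sw = true) :
    W' mask 0 0 := by
  unfold W'
  rw [dec_zero]
  refine W.leaf ?_
  simp only [leafOK, Bool.and_eq_true, Bool.or_eq_true, decide_eq_true_eq, List.all_eq_true] at h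
  obtain ⟨⟨h1, h2⟩, h3⟩ := h
  refine ⟨(tx, ty), e1, e2, h1, h2, ?_⟩
  cases sw with
  | false =>
    left
    intro p hp
    have := h3 p ((mem_snaky_iff p).1 hp)
    simp only [Bool.false_eq_true, if_false] at this
    exact Finset.mem_coe.2 (cellOK_mem this)
  | true =>
    right
    intro p hp
    have := h3 p ((mem_snaky_iff p).1 hp)
    simp only [if_true] at this
    exact Finset.mem_coe.2 (cellOK_mem this)

theorem root' {F k : ℕ} (h : W' 0 F k) (hk : k ≤ 21) : MWin ∅ ∅ 21 := by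
  unfold W' at h
  rw [dec_zero] at h
  exact h.root hk

end Crest.Agent.S0047G
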