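import Mathlib
import Crest.Prelude.Def_PolyominoGame

/-!
Snaky achievement game (S0047): semantic layer.

* `MWin M B k`: Maker, to move in the position with Maker cells `M` and Breaker cells `B`,
  can force a copy of Snaky within `k` more Maker moves.
* `bridge : MWin ∅ ∅ 21 → (statement of S0047)`.
* `W N F k`: position-independent lemma "whenever Maker holds `N` and every cell of `F` is empty,
  Maker (to move) wins within `k` moves".
* rules `W.leaf`, `R.base`, `R.combine`, `R.finish` to derive such lemmas.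
-/

namespace Crest.Agent.S0047G

open Crest.CombinatoricsR.PolyominoGame

abbrev Cell := ℤ × ℤ

theorem containsCopy_mono {X Y : Set Cell} (h : X ⊆ Y) : ContainsCopy X → ContainsCopy Y := by
  rintro ⟨t, e1, e2, h1, h2, h3⟩
  refine ⟨t, e1, e2, h1, h2, ?_⟩
  rcases h3 with h3 | h3
  · exact Or.inl fun p hp => h (h3 p hp)
  · exact Or.inr fun p hp => h (h3 p hp)

/-- Maker (to move) wins within `k` more moves. -/
def MWin : Finset Cell → Finset Cell → ℕ → Prop
  | M, _, 0 => ContainsCopy (M : Set Cell)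
  | M, B, k+1 => ContainsCopy (M : Set Cell) ∨
      ∃ c, c ∉ M ∧ c ∉ B ∧ ∀ r, r ∉ M → r ≠ c → r ∉ B → MWin (insert c M) (insert r B) k

theorem MWin.mono_succ : ∀ {k : ℕ} {M B : Finset Cell}, MWin M B k → MWin M B (k+1)
  | 0, _, _, h => Or.inl h
  | k+1, _, _, h => by
      rcases h with h | ⟨c, hcM, hcB, hr⟩
      · exact Or.inl h
      · exact Or.inr ⟨c, hcM, hcB, fun r h1 h2 h3 => MWin.mono_succ (hr r h1 h2 h3)⟩

theorem MWin.mono {k k' : ℕ} {M B : Finset Cell} (h : MWin M B k) (hk : k ≤ k') : MWin M B k' := by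
  induction hk with
  | refl => exact h
  | step _ ih => exact MWin.mono_succ ih

/-! ### The policy -/

noncomputable def fresh (M B : Finset Cell) : Cell :=
  Classical.choose (Infinite.exists_notMem_finset (M ∪ B))

theorem fresh_spec (M B : Finset Cell) : fresh M B ∉ M ∪ B :=
  Classical.choose_spec (Infinite.exists_notMem_finset (M ∪ B))

open Classical in
noncomputable def mv (M B : Finset Cell) (k : ℕ) : Cell :=
  if h : ∃ c, c ∉ M ∧ c ∉ B ∧ ∀ r, r ∉ M → r ≠ c → r ∉ B → MWin (insert c M) (insert r B) (k-1)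
  then Classical.choose h else fresh M B

theorem mv_notMem (M B : Finset Cell) (k : ℕ) : mv M B k ∉ M ∧ mv M B k ∉ B := by
  unfold mv
  split_ifs with h
  · exact ⟨(Classical.choose_spec h).1, (Classical.choose_spec h).2.1⟩
  · have := fresh_spec M B
    simp only [Finset.mem_union, not_or] at this
    exact this

theorem mv_win (M B : Finset Cell) (k : ℕ) (hw : MWin M B (k+1)) (hn : ¬ ContainsCopy (M : Set Cell)) :
    ∀ r, r ∉ M → r ≠ mv M B (k+1) → r ∉ B → MWin (insert (mv M B (k+1)) M) (insert r B) k := by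
  have h : ∃ c, c ∉ M ∧ c ∉ B ∧ ∀ r, r ∉ M → r ≠ c → r ∉ B →
      MWin (insert c M) (insert r B) (k+1-1) := by
    rcases hw with hw | hw
    · exact absurd hw hn
    · simpa using hw
  unfold mv
  rw [dif_pos h]
  simpa using (Classical.choose_spec h).2.2

noncomputable def step (s : Finset Cell × Finset Cell × ℕ) (r : Cell) : Finset Cell × Finset Cell × ℕ :=
  (insert (mv s.1 s.2.1 s.2.2) s.1, insert r s.2.1, s.2.2 - 1)

noncomputable def run (l : List Cell) : Finset Cell × Finset Cell × ℕ := l.foldl step (∅, ∅, 21)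

noncomputable def pol (l : List Cell) : Cell := mv (run l).1 (run l).2.1 (run l).2.2

theorem run_succ (b : ℕ → Cell) (j : ℕ) :
    run ((List.range (j+1)).map b) = step (run ((List.range j).map b)) (b j) := by
  simp [run, List.range_succ, List.foldl_append]

theorem claim_eq (b : ℕ → Cell) (j : ℕ) :
    makerClaim pol b j = mv (run ((List.range j).map b)).1 (run ((List.range j).map b)).2.1
      (run ((List.range j).map b)).2.2 := rfl

theorem bridge (h0 : MWin ∅ ∅ 21) :
    ∃ σ : List (ℤ × ℤ) → ℤ × ℤ, ∀ b : ℕ → ℤ × ℤ,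
      (∀ k : ℕ, k < 20 →
        (∀ j : ℕ, j ≤ k → b k ≠ makerClaim σ b j) ∧
        (∀ j : ℕ, j < k → b k ≠ b j)) →
      (∀ k : ℕ, k ≤ 20 →
        (∀ j : ℕ, j < k → makerClaim σ b k ≠ makerClaim σ b j) ∧
        (∀ j : ℕ, j < k → makerClaim σ b k ≠ b j)) ∧
      ContainsCopy {c | ∃ j : ℕ, j ≤ 20 ∧ c = makerClaim σ b j} := by
  refine ⟨pol, fun b hb => ?_⟩
  set S : ℕ → Finset Cell × Finset Cell × ℕ := fun j => run ((List.range j).map b) with hS
  have hclaim : ∀ j, makerClaim pol b j = mv (S j).1 (S j).2.1 (S j).2.2 := fun j => rfl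
  have hSsucc : ∀ j, S (j+1) = step (S j) (b j) := fun j => run_succ b j
  -- invariant
  have inv : ∀ j, j ≤ 20 →
      (S j).2.2 = 21 - j ∧
      (∀ x, x ∈ (S j).1 ↔ ∃ i, i < j ∧ x = makerClaim pol b i) ∧
      (∀ x, x ∈ (S j).2.1 ↔ ∃ i, i < j ∧ x = b i) ∧
      (ContainsCopy ((S j).1 : Set Cell) ∨ MWin (S j).1 (S j).2.1 (21 - j)) := by
    intro j
    induction j with
    | zero =>
      intro _
      refine ⟨rfl, ?_, ?_, Or.inr ?_⟩
      · intro x; simp [hS, run]
      · intro x; simp [hS, run]
      · simpa [hS, run] using h0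
    | succ j ih =>
      intro hj
      have hj' : j ≤ 20 := by omega
      have hj20 : j < 20 := by omega
      obtain ⟨h1, h2, h3, h4⟩ := ih hj'
      have hbj := hb j hj20
      have hr1 : b j ∉ (S j).1 := by
        rw [h2]; rintro ⟨i, hi, hx⟩; exact hbj.1 i (by omega) hx
      have hr2 : b j ≠ mv (S j).1 (S j).2.1 (S j).2.2 := by
        rw [← hclaim j]; exact hbj.1 j le_rfl
      have hr3 : b j ∉ (S j).2.1 := by
        rw [h3]; rintro ⟨i, hi, hx⟩; exact hbj.2 i hi hx
      rw [hSsucc j]
      refine ⟨?_, ?_, ?_, ?_⟩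
      · simp only [step]; rw [h1]; omega
      · intro x
        simp only [step, Finset.mem_insert]
        rw [h2, ← hclaim j]
        constructor
        · rintro (hx | ⟨i, hi, hx⟩)
          · exact ⟨j, by omega, hx⟩
          · exact ⟨i, by omega, hx⟩
        · rintro ⟨i, hi, hx⟩
          rcases Nat.lt_succ_iff_lt_or_eq.mp hi with hi | hi
          · exact Or.inr ⟨i, hi, hx⟩
          · left; rw [hx, hi]
      · intro x
        simp only [step, Finset.mem_insert]
        rw [h3]
        constructor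
        · rintro (hx | ⟨i, hi, hx⟩)
          · exact ⟨j, by omega, hx⟩
          · exact ⟨i, by omega, hx⟩
        · rintro ⟨i, hi, hx⟩
          rcases Nat.lt_succ_iff_lt_or_eq.mp hi with hi | hi
          · exact Or.inr ⟨i, hi, hx⟩
          · left; rw [hx, hi]
      · simp only [step]
        by_cases hc : ContainsCopy ((S j).1 : Set Cell)
        · left
          refine containsCopy_mono ?_ hc
          intro x hx
          simp only [Finset.coe_insert, Set.mem_insert_iff]
          exact Or.inr hx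
        · right
          have hw : MWin (S j).1 (S j).2.1 (21 - j) := h4.resolve_left hc
          have e1 : 21 - j = (21 - (j+1)) + 1 := by omega
          rw [e1] at hw
          have e2 : (S j).2.2 = (21 - (j+1)) + 1 := by rw [h1]; omega
          have := mv_win (S j).1 (S j).2.1 (21 - (j+1)) hw hc (b j) hr1 (by rw [e2] at hr2; exact hr2) hr3
          rw [e2]; exact this
  refine ⟨?_, ?_⟩
  · intro k hk
    obtain ⟨h1, h2, h3, h4⟩ := inv k hk
    have hm := mv_notMem (S k).1 (S k).2.1 (S k).2.2
    rw [← hclaim k] at hm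
    refine ⟨fun j hj heq => hm.1 ((h2 _).2 ⟨j, hj, heq⟩), fun j hj heq => hm.2 ((h3 _).2 ⟨j, hj, heq⟩)⟩
  · obtain ⟨h1, h2, h3, h4⟩ := inv 20 le_rfl
    have hsub : ((insert (mv (S 20).1 (S 20).2.1 (S 20).2.2) (S 20).1 : Finset Cell) : Set Cell) ⊆
        {c | ∃ j : ℕ, j ≤ 20 ∧ c = makerClaim pol b j} := by
      intro x hx
      simp only [Finset.coe_insert, Set.mem_insert_iff, Finset.mem_coe] at hx
      rcases hx with hx | hx
      · exact ⟨20, le_rfl, by rw [hx, hclaim 20]⟩
      · obtain ⟨i, hi, hxi⟩ := (h2 x).1 hx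
        exact ⟨i, by omega, hxi⟩
    refine containsCopy_mono hsub ?_
    by_cases hc : ContainsCopy ((S 20).1 : Set Cell)
    · refine containsCopy_mono ?_ hc
      intro x hx
      simp only [Finset.coe_insert, Set.mem_insert_iff]
      exact Or.inr hx
    · have hw : MWin (S 20).1 (S 20).2.1 (0 + 1) := by
        have := h4.resolve_left hc
        simpa using this
      have e2 : (S 20).2.2 = 0 + 1 := by rw [h1]
      rw [e2]
      have hm := mv_notMem (S 20).1 (S 20).2.1 (0+1)
      -- choose any legal reply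
      set c := mv (S 20).1 (S 20).2.1 (0+1) with hcdef
      have hf := fresh_spec (insert c (S 20).1) (S 20).2.1
      simp only [Finset.mem_union, Finset.mem_insert, not_or] at hf
      have := mv_win (S 20).1 (S 20).2.1 0 hw hc (fresh (insert c (S 20).1) (S 20).2.1) hf.1.2 hf.1.1 hf.2
      exact this

/-! ### Position-independent lemmas -/

/-- Whenever Maker holds `N` and all cells of `F` are empty, Maker (to move) wins within `k`. -/
def W (N F : Finset Cell) (k : ℕ) : Prop :=
  ∀ M B : Finset Cell, N ⊆ M → Disjoint F (M ∪ B) → MWin M B k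

/-- Intermediate: a family of lemmas, `fU` the union and `fI` the intersection of their zones. -/
def R (N fU fI : Finset Cell) (k : ℕ) : Prop :=
  ∀ (M B : Finset Cell) (r : Cell), N ⊆ M → Disjoint fU (M ∪ B.erase r) → r ∉ fI → MWin M B k

theorem W.mono {N F N' F' : Finset Cell} {k k' : ℕ} (h : W N F k) (hN : N ⊆ N') (hF : F ⊆ F')
    (hk : k ≤ k') : W N' F' k' :=
  fun M B h1 h2 => (h M B (hN.trans h1) (Finset.disjoint_of_subset_left hF h2)).mono hk

theorem W.leaf {N : Finset Cell} (h : ContainsCopy (N : Set Cell)) : W N ∅ 0 :=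
  fun M _ h1 _ => containsCopy_mono (by exact_mod_cast h1) h

theorem R.base {N F : Finset Cell} {k : ℕ} (h : W N F k) : R N F F k := by
  intro M B r h1 h2 h3
  refine h M B h1 ?_
  rw [Finset.disjoint_left] at h2 ⊢
  intro x hx hx'
  refine h2 hx ?_
  rw [Finset.mem_union] at hx' ⊢
  rcases hx' with hx' | hx'
  · exact Or.inl hx'
  · exact Or.inr (Finset.mem_erase.2 ⟨fun e => h3 (e ▸ hx), hx'⟩)

theorem R.combine {N fU fI N2 F2 : Finset Cell} {k k2 : ℕ} (h : R N fU fI k) (h2 : W N2 F2 k2) :
    R (N ∪ N2) (fU ∪ F2) (fI ∩ F2) (max k k2) := by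
  intro M B r h1 hd h3
  by_cases hr : r ∈ fI
  · have hr2 : r ∉ F2 := fun h' => h3 (Finset.mem_inter.2 ⟨hr, h'⟩)
    refine (h2 M B (Finset.union_subset_right h1) ?_).mono (le_max_right _ _)
    rw [Finset.disjoint_left] at hd ⊢
    intro x hx hx'
    refine hd (Finset.mem_union_right _ hx) ?_
    rw [Finset.mem_union] at hx' ⊢
    rcases hx' with hx' | hx'
    · exact Or.inl hx'
    · exact Or.inr (Finset.mem_erase.2 ⟨fun e => hr2 (e ▸ hx), hx'⟩)
  · exact (h M B r (Finset.union_subset_left h1)
      (Finset.disjoint_of_subset_left Finset.subset_union_left hd) hr).mono (le_max_left _ _)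

theorem R.finish {N fU : Finset Cell} {k : ℕ} (h : R N fU ∅ k) {c : Cell} (hc : c ∉ fU) :
    W (N.erase c) (insert c fU) (k+1) := by
  intro M B h1 hd
  rw [Finset.disjoint_left] at hd
  have hcM : c ∉ M := fun h' => hd (Finset.mem_insert_self _ _) (Finset.mem_union_left _ h')
  have hcB : c ∉ B := fun h' => hd (Finset.mem_insert_self _ _) (Finset.mem_union_right _ h')
  refine Or.inr ⟨c, hcM, hcB, fun r hrM hrc hrB => ?_⟩
  refine h (insert c M) (insert r B) r ?_ ?_ (Finset.notMem_empty r)
  · intro x hx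
    by_cases hxc : x = c
    · rw [hxc]; exact Finset.mem_insert_self _ _
    · exact Finset.mem_insert_of_mem (h1 (Finset.mem_erase.2 ⟨hxc, hx⟩))
  · rw [Finset.disjoint_left]
    intro x hx hx'
    rw [Finset.mem_union, Finset.mem_insert] at hx'
    rcases hx' with (hx' | hx') | hx'
    · exact hc (hx' ▸ hx)
    · exact hd (Finset.mem_insert_of_mem hx) (Finset.mem_union_left _ hx')
    · have := (Finset.mem_erase.1 hx').2
      rw [Finset.mem_insert] at this
      rcases this with this | this
      · exact (Finset.mem_erase.1 hx').1 this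
      · exact hd (Finset.mem_insert_of_mem hx) (Finset.mem_union_right _ this)

theorem W.root {F : Finset Cell} {k : ℕ} (h : W ∅ F k) (hk : k ≤ 21) : MWin ∅ ∅ 21 :=
  (h ∅ ∅ (Finset.empty_subset _) (by simp)).mono hk

end Crest.Agent.S0047G
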