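import Crest.Agent.S0047.WBits

/-!
Snaky achievement game (S0047): board symmetries for the lemma calculus of `WGame`/`WBits`.
The three generators of the dihedral group (swap of coordinates, `x ↦ -x`, `y ↦ -y`) map winning
lemmas to winning lemmas; on bit masks they are computed by `symMask`.
-/

namespace Crest.Agent.S0047G

open Crest.CombinatoricsR.PolyominoGame

/-- A bijection of the board that maps copies of Snaky to copies of Snaky. -/
structure Sym where
  e : Cell ≃ Cell
  copy : ∀ X : Set Cell, ContainsCopy X → ContainsCopy (e '' X)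

theorem MWin.map (σ : Sym) : ∀ {k : ℕ} {M B : Finset Cell}, MWin M B k →
    MWin (M.map σ.e.toEmbedding) (B.map σ.e.toEmbedding) k
  | 0, M, B, h => by
      have h' : ContainsCopy (M : Set Cell) := h
      show ContainsCopy ((M.map σ.e.toEmbedding : Finset Cell) : Set Cell)
      rw [Finset.coe_map]
      exact σ.copy _ h'
  | k+1, M, B, h => by
      have h' : ContainsCopy (M : Set Cell) ∨
          ∃ c, c ∉ M ∧ c ∉ B ∧ ∀ r, r ∉ M → r ≠ c → r ∉ B → MWin (insert c M) (insert r B) k := h
      show ContainsCopy ((M.map σ.e.toEmbedding : Finset Cell) : Set Cell) ∨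
          ∃ c, c ∉ M.map σ.e.toEmbedding ∧ c ∉ B.map σ.e.toEmbedding ∧
            ∀ r, r ∉ M.map σ.e.toEmbedding → r ≠ c → r ∉ B.map σ.e.toEmbedding →
              MWin (insert c (M.map σ.e.toEmbedding)) (insert r (B.map σ.e.toEmbedding)) k
      rcases h' with h' | ⟨c, hcM, hcB, hr⟩
      · left
        rw [Finset.coe_map]
        exact σ.copy _ h'
      · right
        refine ⟨σ.e c, ?_, ?_, ?_⟩
        · simpa using hcM
        · simpa using hcB
        · intro r h1 h2 h3
          have e1 : σ.e (σ.e.symm r) = r := σ.e.apply_symm_apply r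
          have g1 : σ.e.symm r ∉ M := by
            intro hm; apply h1; rw [← e1]; exact Finset.mem_map_of_mem _ hm
          have g2 : σ.e.symm r ≠ c := by
            intro hm; apply h2; rw [← e1, hm]
          have g3 : σ.e.symm r ∉ B := by
            intro hm; apply h3; rw [← e1]; exact Finset.mem_map_of_mem _ hm
          have := MWin.map σ (hr (σ.e.symm r) g1 g2 g3)
          rw [Finset.map_insert, Finset.map_insert] at this
          simpa [e1] using this

theorem map_symm_map (σ : Sym) (S : Finset Cell) :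
    (S.map σ.e.symm.toEmbedding).map σ.e.toEmbedding = S := by
  ext x
  simp only [Finset.mem_map, Equiv.coe_toEmbedding]
  constructor
  · rintro ⟨y, ⟨z, hz, rfl⟩, rfl⟩
    simpa using hz
  · intro hx
    exact ⟨σ.e.symm x, ⟨x, hx, rfl⟩, by simp⟩

theorem W.map (σ : Sym) {N F : Finset Cell} {k : ℕ} (h : W N F k) :
    W (N.map σ.e.toEmbedding) (F.map σ.e.toEmbedding) k := by
  intro M B h1 h2
  have key := (h (M.map σ.e.symm.toEmbedding) (B.map σ.e.symm.toEmbedding) ?_ ?_).map σ
  · rwa [map_symm_map, map_symm_map] at key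
  · intro x hx
    have : σ.e x ∈ M := h1 (Finset.mem_map_of_mem _ hx)
    simp only [Finset.mem_map, Equiv.coe_toEmbedding]
    exact ⟨σ.e x, this, by simp⟩
  · rw [Finset.disjoint_left] at h2 ⊢
    intro x hx hx'
    refine h2 (Finset.mem_map_of_mem _ hx) ?_
    simp only [Finset.mem_union, Finset.mem_map, Equiv.coe_toEmbedding] at hx' ⊢
    rcases hx' with ⟨y, hy, rfl⟩ | ⟨y, hy, rfl⟩
    · left; simpa using hy
    · right; simpa using hy

/-! ### The three generators -/

def swapE : Cell ≃ Cell := Equiv.prodComm ℤ ℤ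

def negxE : Cell ≃ Cell where
  toFun p := (-p.1, p.2)
  invFun p := (-p.1, p.2)
  left_inv p := by simp
  right_inv p := by simp

def negyE : Cell ≃ Cell where
  toFun p := (p.1, -p.2)
  invFun p := (p.1, -p.2)
  left_inv p := by simp
  right_inv p := by simp

def swapS : Sym where
  e := swapE
  copy := by
    rintro X ⟨t, e1, e2, h1, h2, h3⟩
    refine ⟨(t.2, t.1), e2, e1, h2, h1, ?_⟩
    rcases h3 with h3 | h3
    · right
      intro p hp
      exact ⟨_, h3 p hp, rfl⟩
    · left
      intro p hp
      exact ⟨_, h3 p hp, rfl⟩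

def negxS : Sym where
  e := negxE
  copy := by
    rintro X ⟨t, e1, e2, h1, h2, h3⟩
    refine ⟨(-t.1, t.2), -e1, e2, by rcases h1 with h | h <;> simp [h], h2, ?_⟩
    rcases h3 with h3 | h3
    · left
      intro p hp
      refine ⟨_, h3 p hp, ?_⟩
      simp only [negxE, Equiv.coe_fn_mk, Prod.mk.injEq, and_true]
      ring
    · right
      intro p hp
      refine ⟨_, h3 p hp, ?_⟩
      simp only [negxE, Equiv.coe_fn_mk, Prod.mk.injEq, and_true]
      ring

def negyS : Sym where
  e := negyE
  copy := by
    rintro X ⟨t, e1, e2, h1, h2, h3⟩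
    refine ⟨(t.1, -t.2), e1, -e2, h1, by rcases h2 with h | h <;> simp [h], ?_⟩
    rcases h3 with h3 | h3
    · left
      intro p hp
      refine ⟨_, h3 p hp, ?_⟩
      simp only [negyE, Equiv.coe_fn_mk, Prod.mk.injEq, true_and]
      ring
    · right
      intro p hp
      refine ⟨_, h3 p hp, ?_⟩
      simp only [negyE, Equiv.coe_fn_mk, Prod.mk.injEq, true_and]
      ring

/-- generator number `s`: `0` swap, `1` negate `x`, otherwise negate `y`. -/
def symOf (s : ℕ) : Sym := if s = 0 then swapS else if s = 1 then negxS else negyS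

/-! ### Bit masks -/

/-- image of a bit index under generator `s`. -/
def symIdx (s i : ℕ) : ℕ :=
  if s = 0 then (i % 32) * 32 + i / 32
  else if s = 1 then (i / 32) * 32 + (32 - i % 32)
  else (32 - i / 32) * 32 + i % 32

/-- the image of index `i` stays in the window. -/
def okIdx (s i : ℕ) : Bool :=
  if s = 0 then true else if s = 1 then decide (i % 32 ≠ 0) else decide (i / 32 ≠ 0)

/-- images of the bits `lo ≤ i < lo + 2 ^ d` of `n` (binary splitting keeps the evaluation shallow). -/
def symAux (s n : ℕ) : ℕ → ℕ → ℕ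
  | 0, lo => if n.testBit lo = true then 1 <<< symIdx s lo else 0
  | d+1, lo => symAux s n d lo ||| symAux s n d (lo + 2 ^ d)

/-- image of a mask under generator `s`. -/
def symMask (s n : ℕ) : ℕ := symAux s n 10 0

def symGoodAux (s n : ℕ) : ℕ → ℕ → Bool
  | 0, lo => !n.testBit lo || okIdx s lo
  | d+1, lo => symGoodAux s n d lo && symGoodAux s n d (lo + 2 ^ d)

def symGood (s n : ℕ) : Bool := symGoodAux s n 10 0

theorem cellOf_symIdx (s i : ℕ) (hi : i < 1024) (hok : okIdx s i = true) :
    cellOf (symIdx s i) = (symOf s).e (cellOf i) := by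
  unfold symIdx okIdx symOf at *
  by_cases h0 : s = 0
  · simp only [h0, if_true]
    simp only [cellOf, swapS, swapE, Equiv.prodComm_apply, Prod.swap_prod_mk, Prod.mk.injEq]
    constructor <;> omega
  · by_cases h1 : s = 1
    · simp only [h1, if_true, one_ne_zero, if_false, decide_eq_true_eq] at hok ⊢
      simp only [cellOf, negxS, negxE, Equiv.coe_fn_mk, Prod.mk.injEq]
      constructor <;> omega
    · simp only [h0, h1, if_false, decide_eq_true_eq] at hok ⊢
      simp only [cellOf, negyS, negyE, Equiv.coe_fn_mk, Prod.mk.injEq]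
      constructor <;> omega

theorem testBit_symAux (s n : ℕ) : ∀ d lo j, (symAux s n d lo).testBit j = true ↔
    ∃ i, lo ≤ i ∧ i < lo + 2 ^ d ∧ n.testBit i = true ∧ symIdx s i = j
  | 0, lo, j => by
      unfold symAux
      by_cases hb : n.testBit lo = true
      · rw [if_pos hb, testBit_one_shiftLeft, decide_eq_true_eq]
        constructor
        · intro h; exact ⟨lo, le_rfl, by simp, hb, h⟩
        · rintro ⟨i, h1, h2, _, h4⟩
          have : i = lo := by simp at h2; omega
          rw [← this]; exact h4
      · rw [if_neg hb]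
        constructor
        · intro h; simp at h
        · rintro ⟨i, h1, h2, h3, _⟩
          have : i = lo := by simp at h2; omega
          rw [this] at h3; exact absurd h3 hb
  | d+1, lo, j => by
      unfold symAux
      rw [Nat.testBit_lor, Bool.or_eq_true, testBit_symAux s n d lo j,
        testBit_symAux s n d (lo + 2 ^ d) j]
      have hp : 2 ^ (d + 1) = 2 ^ d + 2 ^ d := by rw [pow_succ]; ring
      constructor
      · rintro (⟨i, h1, h2, h3, h4⟩ | ⟨i, h1, h2, h3, h4⟩)
        · exact ⟨i, h1, by omega, h3, h4⟩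
        · exact ⟨i, by omega, by omega, h3, h4⟩
      · rintro ⟨i, h1, h2, h3, h4⟩
        by_cases hi : i < lo + 2 ^ d
        · left; exact ⟨i, h1, hi, h3, h4⟩
        · right; exact ⟨i, by omega, by omega, h3, h4⟩

theorem symGoodAux_spec (s n : ℕ) : ∀ d lo, symGoodAux s n d lo = true →
    ∀ i, lo ≤ i → i < lo + 2 ^ d → n.testBit i = true → okIdx s i = true
  | 0, lo => by
      intro h i h1 h2 hb
      have : i = lo := by simp at h2; omega
      subst this
      unfold symGoodAux at h
      rw [hb] at h
      simpa using h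
  | d+1, lo => by
      intro h i h1 h2 hb
      unfold symGoodAux at h
      rw [Bool.and_eq_true] at h
      have hp : 2 ^ (d + 1) = 2 ^ d + 2 ^ d := by rw [pow_succ]; ring
      by_cases hi : i < lo + 2 ^ d
      · exact symGoodAux_spec s n d lo h.1 i h1 hi hb
      · exact symGoodAux_spec s n d (lo + 2 ^ d) h.2 i (by omega) (by omega) hb

theorem lt_of_testBit_lt {n i : ℕ} (hn : n >>> 1024 = 0) (h : n.testBit i = true) : i < 1024 := by
  by_contra hc
  have h1 : (n >>> 1024).testBit (i - 1024) = true := by
    rw [Nat.testBit_shiftRight]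
    have : 1024 + (i - 1024) = i := by omega
    rw [this]; exact h
  rw [hn] at h1
  simp at h1

theorem dec_symMask (s n : ℕ) (hn : n >>> 1024 = 0) (hg : symGood s n = true) :
    dec (symMask s n) = (dec n).map (symOf s).e.toEmbedding := by
  have hg' : ∀ i, i < 1024 → n.testBit i = true → okIdx s i = true := by
    intro i hi hb
    exact symGoodAux_spec s n 10 0 hg i (Nat.zero_le _) (by norm_num; exact hi) hb
  ext x
  rw [mem_dec, Finset.mem_map]
  constructor
  · rintro ⟨j, hj, rfl⟩
    obtain ⟨i, _, hi, hb, rfl⟩ := (testBit_symAux s n 10 0 j).1 hj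
    have hi' : i < 1024 := by norm_num at hi; exact hi
    exact ⟨cellOf i, cellOf_mem_dec.2 hb, (cellOf_symIdx s i hi' (hg' i hi' hb)).symm⟩
  · rintro ⟨y, hy, rfl⟩
    obtain ⟨i, hb, rfl⟩ := mem_dec.1 hy
    have hi : i < 1024 := lt_of_testBit_lt hn hb
    exact ⟨symIdx s i, (testBit_symAux s n 10 0 _).2 ⟨i, Nat.zero_le _, by norm_num; exact hi, hb, rfl⟩,
      cellOf_symIdx s i hi (hg' i hi hb)⟩

/-- the check for one application of a symmetry. -/
def symCheck (s n f N F : ℕ) : Bool :=
  (n >>> 1024 == 0) && (f >>> 1024 == 0) && symGood s n && symGood s f &&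
    (symMask s n == N) && (symMask s f == F)

theorem sym' {n f k : ℕ} (h : W' n f k) (s N F : ℕ) (hchk : symCheck s n f N F = true) :
    W' N F k := by
  simp only [symCheck, Bool.and_eq_true, beq_iff_eq] at hchk
  obtain ⟨⟨⟨⟨⟨h1, h2⟩, h3⟩, h4⟩, h5⟩, h6⟩ := hchk
  subst h5 h6
  unfold W'
  rw [dec_symMask s n h1 h3, dec_symMask s f h2 h4]
  exact W.map (symOf s) h

end Crest.Agent.S0047G
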