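import Crest.Agent.S0047.Game

set_option autoImplicit false

namespace Crest.Agent.S0047
open Crest.CombinatoricsR.PolyominoGame

/-! Bit-mask layer.  Window of 16 × 16 cells; bit `i` is the cell `(i / 16 - 8, i % 16 - 8)`. -/

/-- cell of bit index `i`. -/
def cellOf (i : ℕ) : ℤ × ℤ := (((i / 16 : ℕ) : ℤ) - 8, ((i % 16 : ℕ) : ℤ) - 8)

/-- kernel-friendly bit test. -/
def tb (m i : ℕ) : Bool := Nat.beq (Nat.land (Nat.shiftRight m i) 1) 1

/-- the finite set of cells of a mask. -/
def cells (m : ℕ) : Finset (ℤ × ℤ) :=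
  ((Finset.range 256).filter (fun i => tb m i = true)).image cellOf

/-- Maker to move with `k` claims left and cells `M` wins against every Breaker set that avoids
the zone `Z`. -/
def ZW (k M Z : ℕ) : Prop :=
  ∀ B : Finset (ℤ × ℤ), Disjoint B (cells M) → Disjoint B (cells Z) → MWin k (cells M) B

/-- Breaker to move: every reply outside `cells I` is answered, against every Breaker set that
avoids the zone `U`. -/
def ZA (k M I U : ℕ) : Prop :=
  ∀ B : Finset (ℤ × ℤ), Disjoint B (cells M) → Disjoint B (cells U) →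
    ∀ c, c ∉ cells M → c ∉ B → c ∉ cells I → MWin k (cells M) (insert c B)

/-- side condition of an inner node: Maker plays bit `m`. -/
def nodeCond (M Z m M' I U : ℕ) : Bool :=
  Nat.ble (m + 1) 256 && !tb M m && tb Z m && Nat.beq M' (Nat.lor M (Nat.shiftLeft 1 m)) &&
    Nat.beq I 0 && Nat.beq (Nat.land U Z) U

/-- coordinate `a ± p`. -/
def cp (e : Bool) (a p : ℕ) : ℕ := if e then a + p else a - p

def bitAt (X Y : ℕ) : ℕ := Nat.shiftLeft 1 (16 * X + Y)

/-- orientation code `o < 8`: bit 2 = swap, bit 1 = sign 1 is `+`, bit 0 = sign 2 is `+`.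
line code `c = o * 256 + ax * 16 + ay`. -/
def copyMask (c : ℕ) : ℕ :=
  let ay := c % 16
  let ax := (c / 16) % 16
  let e2 := tb c 8
  let e1 := tb c 9
  if tb c 10 then
    Nat.lor (Nat.lor (Nat.lor (Nat.lor (Nat.lor (bitAt ax ay) (bitAt ax (cp e2 ay 1)))
      (bitAt ax (cp e2 ay 2))) (bitAt ax (cp e2 ay 3))) (bitAt (cp e1 ax 1) (cp e2 ay 3)))
      (bitAt (cp e1 ax 1) (cp e2 ay 4))
  else
    Nat.lor (Nat.lor (Nat.lor (Nat.lor (Nat.lor (bitAt ax ay) (bitAt (cp e1 ax 1) ay))
      (bitAt (cp e1 ax 2) ay)) (bitAt (cp e1 ax 3) ay)) (bitAt (cp e1 ax 3) (cp e2 ay 1)))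
      (bitAt (cp e1 ax 4) (cp e2 ay 1))

def copyOK (c : ℕ) : Bool :=
  let ay := c % 16
  let ax := (c / 16) % 16
  let e2 := tb c 8
  let e1 := tb c 9
  Nat.ble (c + 1) 2048 &&
  if tb c 10 then
    (e1 || Nat.ble 1 ax) && Nat.ble (cp e1 ax 1 + 1) 16 && (e2 || Nat.ble 4 ay) &&
      Nat.ble (cp e2 ay 4 + 1) 16
  else
    (e1 || Nat.ble 4 ax) && Nat.ble (cp e1 ax 4 + 1) 16 && (e2 || Nat.ble 1 ay) &&
      Nat.ble (cp e2 ay 1 + 1) 16

/-- Maker completes the copy `c` by playing bit `e`. -/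
def leafCond (M Z c e : ℕ) : Bool :=
  copyOK c && Nat.ble (e + 1) 256 && !tb M e && tb Z e &&
    Nat.beq (Nat.land (copyMask c) (Nat.lor M (Nat.shiftLeft 1 e))) (copyMask c)

/-- Maker plays `m`, threatening to complete copy `c` at `e`; after Breaker's reply at `e`
the lemma for `M'` with zone `Ze` applies. -/
def threatCond (M Z m M' c e Ze : ℕ) : Bool :=
  Nat.ble (m + 1) 256 && !tb M m && tb Z m && Nat.beq M' (Nat.lor M (Nat.shiftLeft 1 m)) &&
    leafCond M' Z c e && !tb Ze e && Nat.beq (Nat.land Ze Z) Ze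

/-- A forced winning sequence.  Each step is packed as `m + 256 * e + 65536 * c`
(Maker plays `m`, threatening copy `c` at `e`, Breaker must reply at `e`); the last step is
`m + 256 * e1 + 65536 * c1 + 2^27 * (e2 + 256 * c2)` (a double threat). -/
def tssCheck : ℕ → ℕ → ℕ → List ℕ → Bool
  | _, _, _, [] => false
  | k, M, Z, [s] =>
    let m := s % 256
    let e1 := (s / 256) % 256
    let c1 := (s / 65536) % 2048
    let e2 := (s / 134217728) % 256
    let c2 := s / 34359738368
    let M' := Nat.lor M (Nat.shiftLeft 1 m)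
    Nat.ble 2 k && Nat.ble (m + 1) 256 && !tb M m && tb Z m && leafCond M' Z c1 e1 &&
      leafCond M' Z c2 e2 && !Nat.beq e1 e2
  | k, M, Z, s :: rest =>
    let m := s % 256
    let e := (s / 256) % 256
    let c := s / 65536
    let M' := Nat.lor M (Nat.shiftLeft 1 m)
    Nat.ble 1 k && Nat.ble (m + 1) 256 && !tb M m && tb Z m && leafCond M' Z c e &&
      tssCheck (k - 1) M' (Nat.xor Z (Nat.shiftLeft 1 e)) rest

end Crest.Agent.S0047
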