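import Crest.Agent.S0047.Cells

set_option autoImplicit false

namespace Crest.Agent.S0047
open Crest.CombinatoricsR.PolyominoGame

/-! Inner nodes of the certificate (job S0047/NODE). -/

theorem ZA.one {k M Z : ℕ} (h : ZW k M Z) : ZA k M Z Z := by
  intro B hBM hBZ c hcM hcB hcZ
  refine h (insert c B) ?_ ?_
  · rw [Finset.disjoint_insert_left]
    exact ⟨hcM, hBM⟩
  · rw [Finset.disjoint_insert_left]
    exact ⟨hcZ, hBZ⟩

theorem ZA.step {k M I U Z : ℕ} (h : ZA k M I U) (hz : ZW k M Z) :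
    ZA k M (Nat.land I Z) (Nat.lor U Z) := by
  intro B hBM hBUZ c hcM hcB hcIZ
  rw [cells_lor, Finset.disjoint_union_right] at hBUZ
  rw [cells_land, Finset.mem_inter, not_and_or] at hcIZ
  rcases hcIZ with hcI | hcZ
  · exact h B hBM hBUZ.1 c hcM hcB hcI
  · refine hz (insert c B) ?_ ?_
    · rw [Finset.disjoint_insert_left]
      exact ⟨hcM, hBM⟩
    · rw [Finset.disjoint_insert_left]
      exact ⟨hcZ, hBUZ.2⟩

theorem ZW.node {k M Z : ℕ} (m M' : ℕ) {I U : ℕ} (h : ZA k M' I U)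
    (hc : nodeCond M Z m M' I U = true) : ZW (k+1) M Z := by
  unfold nodeCond at hc
  simp only [Bool.and_eq_true] at hc
  obtain ⟨⟨⟨⟨⟨hm, hMm⟩, hZm⟩, hM'⟩, hI⟩, hU⟩ := hc
  have hm' : m < 256 := Nat.lt_of_succ_le (Nat.le_of_ble_eq_true hm)
  have hMm' : tb M m = false := by
    cases hb : tb M m with
    | false => rfl
    | true => rw [hb] at hMm; exact absurd hMm (by decide)
  have hM'eq : M' = Nat.lor M (Nat.shiftLeft 1 m) := Nat.eq_of_beq_eq_true hM'
  have hIeq : I = 0 := Nat.eq_of_beq_eq_true hI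
  have hUZ : cells U ⊆ cells Z := cells_subset hU
  have hcM' : cells M' = insert (cellOf m) (cells M) := by
    rw [hM'eq, cells_lor, cells_bit hm', Finset.union_comm]
    rfl
  have hmM : cellOf m ∉ cells M := by
    rw [mem_cells hm', hMm']
    exact Bool.false_ne_true
  have hmZ : cellOf m ∈ cells Z := (mem_cells hm').2 hZm
  intro B hBM hBZ
  have hmB : cellOf m ∉ B := fun hB => (Finset.disjoint_left.1 hBZ hB) hmZ
  refine Or.inr ⟨cellOf m, hmM, hmB, ?_⟩
  intro c hcM hcB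
  rw [← hcM'] at hcM ⊢
  refine h B ?_ ?_ c hcM hcB ?_
  · rw [hcM', Finset.disjoint_insert_right]
    exact ⟨hmB, hBM⟩
  · exact Finset.disjoint_of_subset_right hUZ hBZ
  · rw [hIeq, cells_zero]
    exact Finset.notMem_empty c

theorem MWin_of_ZW {Z : ℕ} (h : ZW 21 0 Z) : MWin 21 ∅ ∅ := by
  have h1 := h ∅ (Finset.disjoint_empty_left _) (Finset.disjoint_empty_left _)
  rwa [cells_zero] at h1

end Crest.Agent.S0047
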