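import Crest.Agent.S0047.Cells

set_option autoImplicit false

namespace Crest.Agent.S0047
open Crest.CombinatoricsR.PolyominoGame

/-! Leaves and single threats (job S0047/LEAF). -/

theorem leafAux_cp_true (a p : ℕ) : cp true a p = a + p := rfl

theorem leafAux_cp_false (a p : ℕ) : cp false a p = a - p := rfl

theorem leafAux_cell (X Y : ℕ) (x y : ℤ) (hX : X < 16) (hY : Y < 16)
    (hx : x + 8 = (X : ℤ)) (hy : y + 8 = (Y : ℤ)) : (x, y) ∈ cells (bitAt X Y) := by
  have h256 : 16 * X + Y < 256 := by omega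
  unfold bitAt
  rw [cells_bit h256, Finset.mem_singleton]
  have h1 : (16 * X + Y) / 16 = X := by omega
  have h2 : (16 * X + Y) % 16 = Y := by omega
  unfold cellOf
  rw [h1, h2]
  ext <;> simp only <;> omega

theorem leafAux_ble {a b : ℕ} (h : Nat.ble a b = true) : a ≤ b := Nat.le_of_ble_eq_true h

theorem leafAux_swap (e1 e2 : Bool) (ax ay : ℕ) (hax : ax < 16) (hay : ay < 16)
    (h1 : e1 = true ∨ 1 ≤ ax) (h2 : cp e1 ax 1 + 1 ≤ 16) (h3 : e2 = true ∨ 4 ≤ ay)
    (h4 : cp e2 ay 4 + 1 ≤ 16) :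
    ContainsCopy (↑(cells (Nat.lor (Nat.lor (Nat.lor (Nat.lor (Nat.lor (bitAt ax ay)
      (bitAt ax (cp e2 ay 1))) (bitAt ax (cp e2 ay 2))) (bitAt ax (cp e2 ay 3)))
      (bitAt (cp e1 ax 1) (cp e2 ay 3))) (bitAt (cp e1 ax 1) (cp e2 ay 4)))) : Set (ℤ × ℤ)) := by
  refine ⟨((ax : ℤ) - 8, (ay : ℤ) - 8), (if e1 = true then 1 else -1),
    (if e2 = true then 1 else -1), ?_, ?_, Or.inr ?_⟩
  · cases e1 <;> simp
  · cases e2 <;> simp
  · intro p hp
    simp only [snaky, Finset.mem_insert, Finset.mem_singleton] at hp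
    simp only [cells_lor, Finset.coe_union, Set.mem_union, Finset.mem_coe]
    cases e1 <;> cases e2 <;>
      simp only [leafAux_cp_true, leafAux_cp_false, Bool.false_eq_true, if_false, if_true,
        false_or, true_or] at h1 h2 h3 h4 ⊢ <;>
      rcases hp with rfl | rfl | rfl | rfl | rfl | rfl <;>
      first
      | exact Or.inl (Or.inl (Or.inl (Or.inl (Or.inl
          (leafAux_cell _ _ _ _ (by omega) (by omega) (by push_cast; omega) (by push_cast; omega))))))
      | exact Or.inl (Or.inl (Or.inl (Or.inl (Or.inr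
          (leafAux_cell _ _ _ _ (by omega) (by omega) (by push_cast; omega) (by push_cast; omega))))))
      | exact Or.inl (Or.inl (Or.inl (Or.inr
          (leafAux_cell _ _ _ _ (by omega) (by omega) (by push_cast; omega) (by push_cast; omega)))))
      | exact Or.inl (Or.inl (Or.inr
          (leafAux_cell _ _ _ _ (by omega) (by omega) (by push_cast; omega) (by push_cast; omega))))
      | exact Or.inl (Or.inr
          (leafAux_cell _ _ _ _ (by omega) (by omega) (by push_cast; omega) (by push_cast; omega)))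
      | exact Or.inr
          (leafAux_cell _ _ _ _ (by omega) (by omega) (by push_cast; omega) (by push_cast; omega))

theorem leafAux_noswap (e1 e2 : Bool) (ax ay : ℕ) (hax : ax < 16) (hay : ay < 16)
    (h1 : e1 = true ∨ 4 ≤ ax) (h2 : cp e1 ax 4 + 1 ≤ 16) (h3 : e2 = true ∨ 1 ≤ ay)
    (h4 : cp e2 ay 1 + 1 ≤ 16) :
    ContainsCopy (↑(cells (Nat.lor (Nat.lor (Nat.lor (Nat.lor (Nat.lor (bitAt ax ay)
      (bitAt (cp e1 ax 1) ay)) (bitAt (cp e1 ax 2) ay)) (bitAt (cp e1 ax 3) ay))
      (bitAt (cp e1 ax 3) (cp e2 ay 1))) (bitAt (cp e1 ax 4) (cp e2 ay 1)))) : Set (ℤ × ℤ)) := by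
  refine ⟨((ax : ℤ) - 8, (ay : ℤ) - 8), (if e1 = true then 1 else -1),
    (if e2 = true then 1 else -1), ?_, ?_, Or.inl ?_⟩
  · cases e1 <;> simp
  · cases e2 <;> simp
  · intro p hp
    simp only [snaky, Finset.mem_insert, Finset.mem_singleton] at hp
    simp only [cells_lor, Finset.coe_union, Set.mem_union, Finset.mem_coe]
    cases e1 <;> cases e2 <;>
      simp only [leafAux_cp_true, leafAux_cp_false, Bool.false_eq_true, if_false, if_true,
        false_or, true_or] at h1 h2 h3 h4 ⊢ <;>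
      rcases hp with rfl | rfl | rfl | rfl | rfl | rfl <;>
      first
      | exact Or.inl (Or.inl (Or.inl (Or.inl (Or.inl
          (leafAux_cell _ _ _ _ (by omega) (by omega) (by push_cast; omega) (by push_cast; omega))))))
      | exact Or.inl (Or.inl (Or.inl (Or.inl (Or.inr
          (leafAux_cell _ _ _ _ (by omega) (by omega) (by push_cast; omega) (by push_cast; omega))))))
      | exact Or.inl (Or.inl (Or.inl (Or.inr
          (leafAux_cell _ _ _ _ (by omega) (by omega) (by push_cast; omega) (by push_cast; omega)))))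
      | exact Or.inl (Or.inl (Or.inr
          (leafAux_cell _ _ _ _ (by omega) (by omega) (by push_cast; omega) (by push_cast; omega))))
      | exact Or.inl (Or.inr
          (leafAux_cell _ _ _ _ (by omega) (by omega) (by push_cast; omega) (by push_cast; omega)))
      | exact Or.inr
          (leafAux_cell _ _ _ _ (by omega) (by omega) (by push_cast; omega) (by push_cast; omega))

theorem copy_contains (c : ℕ) (h : copyOK c = true) :
    ContainsCopy (↑(cells (copyMask c)) : Set (ℤ × ℤ)) := by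
  unfold copyOK at h
  simp only [Bool.and_eq_true] at h
  obtain ⟨-, h⟩ := h
  have hay : c % 16 < 16 := Nat.mod_lt _ (by norm_num)
  have hax : (c / 16) % 16 < 16 := Nat.mod_lt _ (by norm_num)
  unfold copyMask
  by_cases hs : tb c 10 = true
  · rw [if_pos hs] at h
    simp only [hs, if_true]
    simp only [Bool.and_eq_true, Bool.or_eq_true] at h
    obtain ⟨⟨⟨h1, h2⟩, h3⟩, h4⟩ := h
    exact leafAux_swap (tb c 9) (tb c 8) ((c / 16) % 16) (c % 16) hax hay
      (h1.imp id leafAux_ble) (leafAux_ble h2) (h3.imp id leafAux_ble) (leafAux_ble h4)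
  · rw [if_neg hs] at h
    simp only [hs]
    simp only [Bool.and_eq_true, Bool.or_eq_true] at h
    obtain ⟨⟨⟨h1, h2⟩, h3⟩, h4⟩ := h
    exact leafAux_noswap (tb c 9) (tb c 8) ((c / 16) % 16) (c % 16) hax hay
      (h1.imp id leafAux_ble) (leafAux_ble h2) (h3.imp id leafAux_ble) (leafAux_ble h4)

/-- What a leaf condition gives. -/
theorem leafAux_facts {M Z c e : ℕ} (hc : leafCond M Z c e = true) :
    e < 256 ∧ cellOf e ∉ cells M ∧ cellOf e ∈ cells Z ∧
      ContainsCopy (↑(insert (cellOf e) (cells M)) : Set (ℤ × ℤ)) := by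
  unfold leafCond at hc
  simp only [Bool.and_eq_true] at hc
  obtain ⟨⟨⟨⟨hok, he⟩, hMe⟩, hZe⟩, hsub⟩ := hc
  have he' : e < 256 := Nat.lt_of_succ_le (Nat.le_of_ble_eq_true he)
  have hMe' : tb M e = false := by
    cases hb : tb M e with
    | false => rfl
    | true => rw [hb] at hMe; exact absurd hMe (by decide)
  refine ⟨he', ?_, (mem_cells he').2 hZe, ?_⟩
  · rw [mem_cells he', hMe']
    exact Bool.false_ne_true
  · have h1 : cells (copyMask c) ⊆ cells (Nat.lor M (Nat.shiftLeft 1 e)) := cells_subset hsub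
    have h2 : cells (Nat.lor M (Nat.shiftLeft 1 e)) = insert (cellOf e) (cells M) := by
      rw [cells_lor, cells_bit he', Finset.union_comm]
      rfl
    rw [h2] at h1
    exact containsCopy_mono (Finset.coe_subset.2 h1) (copy_contains c hok)

theorem ZW.leaf {k M Z : ℕ} (c e : ℕ) (hc : leafCond M Z c e = true) : ZW (k+1) M Z := by
  obtain ⟨he, heM, heZ, hcopy⟩ := leafAux_facts hc
  intro B hBM hBZ
  have heB : cellOf e ∉ B := fun hB => (Finset.disjoint_left.1 hBZ hB) heZ
  refine Or.inr ⟨cellOf e, heM, heB, ?_⟩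
  intro c' _ _
  exact MWin_of_containsCopy k _ _ hcopy

theorem ZW.threat {k M Z : ℕ} (m M' c e : ℕ) {Ze : ℕ} (h : ZW (k+1) M' Ze)
    (hc : threatCond M Z m M' c e Ze = true) : ZW (k+2) M Z := by
  unfold threatCond at hc
  simp only [Bool.and_eq_true] at hc
  obtain ⟨⟨⟨⟨⟨⟨hm, hMm⟩, hZm⟩, hM'⟩, hleaf⟩, hZee⟩, hZeZ⟩ := hc
  have hm' : m < 256 := Nat.lt_of_succ_le (Nat.le_of_ble_eq_true hm)
  have hMm' : tb M m = false := by
    cases hb : tb M m with
    | false => rfl
    | true => rw [hb] at hMm; exact absurd hMm (by decide)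
  have hM'eq : M' = Nat.lor M (Nat.shiftLeft 1 m) := Nat.eq_of_beq_eq_true hM'
  have hZe : cells Ze ⊆ cells Z := cells_subset hZeZ
  have hcM' : cells M' = insert (cellOf m) (cells M) := by
    rw [hM'eq, cells_lor, cells_bit hm', Finset.union_comm]
    rfl
  have hmM : cellOf m ∉ cells M := by
    rw [mem_cells hm', hMm']
    exact Bool.false_ne_true
  have hmZ : cellOf m ∈ cells Z := (mem_cells hm').2 hZm
  obtain ⟨he, heM', heZ, hcopy⟩ := leafAux_facts hleaf
  have hZee' : tb Ze e = false := by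
    cases hb : tb Ze e with
    | false => rfl
    | true => rw [hb] at hZee; exact absurd hZee (by decide)
  have heZe : cellOf e ∉ cells Ze := by
    rw [mem_cells he, hZee']
    exact Bool.false_ne_true
  intro B hBM hBZ
  have hmB : cellOf m ∉ B := fun hB => (Finset.disjoint_left.1 hBZ hB) hmZ
  have heB : cellOf e ∉ B := fun hB => (Finset.disjoint_left.1 hBZ hB) heZ
  refine Or.inr ⟨cellOf m, hmM, hmB, ?_⟩
  intro c' hc'M hc'B
  rw [← hcM'] at hc'M ⊢
  by_cases hce : c' = cellOf e
  · subst hce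
    refine h (insert (cellOf e) B) ?_ ?_
    · rw [Finset.disjoint_insert_left]
      refine ⟨hc'M, ?_⟩
      rw [hcM', Finset.disjoint_insert_right]
      exact ⟨hmB, hBM⟩
    · rw [Finset.disjoint_insert_left]
      exact ⟨heZe, Finset.disjoint_of_subset_right hZe hBZ⟩
  · refine Or.inr ⟨cellOf e, heM', ?_, ?_⟩
    · rw [Finset.mem_insert, not_or]
      exact ⟨fun h' => hce h'.symm, heB⟩
    · intro c'' _ _
      exact MWin_of_containsCopy k _ _ hcopy

end Crest.Agent.S0047
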