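import Crest.Agent.S0047.ZoneB

set_option autoImplicit false

namespace Crest.Agent.S0047
open Crest.CombinatoricsR.PolyominoGame

/-! Forced winning sequences (job S0047/TSS). -/

/-- clearing a set bit: the bit is gone. -/
private theorem tssAux_xor_self {z e : ℕ} (h : tb z e = true) :
    tb (Nat.xor z (Nat.shiftLeft 1 e)) e = false := by
  rw [tb_eq_testBit] at h ⊢
  show (z ^^^ (1 <<< e)).testBit e = false
  simp [Nat.testBit_xor, Nat.one_shiftLeft, h]

/-- clearing a set bit: the other bits stay. -/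
private theorem tssAux_xor_ne {z e e' : ℕ} (hne : e ≠ e') (h : tb z e' = true) :
    tb (Nat.xor z (Nat.shiftLeft 1 e)) e' = true := by
  rw [tb_eq_testBit] at h ⊢
  show (z ^^^ (1 <<< e)).testBit e' = true
  simp [Nat.testBit_xor, Nat.one_shiftLeft, h, hne]

/-- clearing a set bit gives a sub-mask. -/
private theorem tssAux_xor_sub {z e : ℕ} (h : tb z e = true) :
    Nat.beq (Nat.land (Nat.xor z (Nat.shiftLeft 1 e)) z) (Nat.xor z (Nat.shiftLeft 1 e)) = true := by
  rw [tb_eq_testBit] at h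
  have key : (z ^^^ (1 <<< e)) &&& z = z ^^^ (1 <<< e) := by
    apply Nat.eq_of_testBit_eq
    intro i
    by_cases hi : e = i
    · subst hi
      simp [Nat.testBit_xor, Nat.one_shiftLeft, h]
    · simp [Nat.testBit_xor, Nat.one_shiftLeft, hi]
  have key' : Nat.land (Nat.xor z (Nat.shiftLeft 1 e)) z = Nat.xor z (Nat.shiftLeft 1 e) := key
  rw [key']
  exact Nat.beq_refl _

/-- a successful check needs at least one claim. -/
private theorem tssAux_pos : ∀ {k M Z : ℕ} (l : List ℕ), tssCheck k M Z l = true → 1 ≤ k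
  | _, _, _, [], h => by simp [tssCheck] at h
  | k, M, Z, [s], h => by
      simp only [tssCheck, Bool.and_eq_true] at h
      have := Nat.le_of_ble_eq_true h.1.1.1.1.1.1
      omega
  | k, M, Z, s :: r :: rest, h => by
      simp only [tssCheck, Bool.and_eq_true] at h
      exact Nat.le_of_ble_eq_true h.1.1.1.1.1

theorem ZW.tss {k M Z : ℕ} (l : List ℕ) (hc : tssCheck k M Z l = true) : ZW k M Z := by
  induction l generalizing k M Z with
  | nil => simp [tssCheck] at hc
  | cons s rest ih =>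
    cases rest with
    | nil =>
      simp only [tssCheck, Bool.and_eq_true] at hc
      obtain ⟨⟨⟨⟨⟨⟨hk, hm⟩, hMm⟩, hZm⟩, hl1⟩, hl2⟩, hne⟩ := hc
      have hk2 := Nat.le_of_ble_eq_true hk
      obtain ⟨k', rfl⟩ : ∃ k', k = k' + 2 := ⟨k - 2, by omega⟩
      have hne' : s / 256 % 256 ≠ s / 134217728 % 256 := by
        intro h
        rw [h, Nat.beq_refl] at hne
        exact absurd hne (by decide)
      have hZe1 : tb Z (s / 256 % 256) = true := by
        simp only [leafCond, Bool.and_eq_true] at hl1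
        exact hl1.1.2
      have hZe2 : tb Z (s / 134217728 % 256) = true := by
        simp only [leafCond, Bool.and_eq_true] at hl2
        exact hl2.1.2
      have hleaf2 : leafCond (Nat.lor M (Nat.shiftLeft 1 (s % 256)))
          (Nat.xor Z (Nat.shiftLeft 1 (s / 256 % 256))) (s / 34359738368)
          (s / 134217728 % 256) = true := by
        simp only [leafCond, Bool.and_eq_true] at hl2 ⊢
        exact ⟨⟨hl2.1.1, tssAux_xor_ne hne' hZe2⟩, hl2.2⟩
      refine ZW.threat (s % 256) (Nat.lor M (Nat.shiftLeft 1 (s % 256))) (s / 65536 % 2048)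
        (s / 256 % 256) (Ze := Nat.xor Z (Nat.shiftLeft 1 (s / 256 % 256)))
        (ZW.leaf (s / 34359738368) (s / 134217728 % 256) hleaf2) ?_
      simp only [threatCond, Bool.and_eq_true]
      refine ⟨⟨⟨⟨⟨⟨hm, hMm⟩, hZm⟩, Nat.beq_refl _⟩, hl1⟩, ?_⟩, tssAux_xor_sub hZe1⟩
      rw [tssAux_xor_self hZe1]
      rfl
    | cons r rest' =>
      simp only [tssCheck, Bool.and_eq_true] at hc
      obtain ⟨⟨⟨⟨⟨hk, hm⟩, hMm⟩, hZm⟩, hl⟩, hrec⟩ := hc
      have h1 := ih hrec
      have hk1 := tssAux_pos _ hrec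
      obtain ⟨k', rfl⟩ : ∃ k', k = k' + 2 := ⟨k - 2, by omega⟩
      have hZe : tb Z (s / 256 % 256) = true := by
        simp only [leafCond, Bool.and_eq_true] at hl
        exact hl.1.2
      refine ZW.threat (s % 256) (Nat.lor M (Nat.shiftLeft 1 (s % 256))) (s / 65536)
        (s / 256 % 256) (Ze := Nat.xor Z (Nat.shiftLeft 1 (s / 256 % 256))) h1 ?_
      simp only [threatCond, Bool.and_eq_true]
      refine ⟨⟨⟨⟨⟨⟨hm, hMm⟩, hZm⟩, Nat.beq_refl _⟩, hl⟩, ?_⟩, tssAux_xor_sub hZe⟩
      rw [tssAux_xor_self hZe]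
      rfl

end Crest.Agent.S0047
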